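import Mathlib

/-!
# P245: the combinatorial inequality

`om a b c u = (1 - P_s(a))² P_s[b,c]² · 2` with `u = s²`, `P_s(x) = x²/(s² + x²)`.  The sum over the
three roles is at most `52/9 < 6` after integration in `u`.
-/

namespace Vale.Agent.P245.H316

open MeasureTheory intervalIntegral

/-- polynomial core of the pointwise inequality -/
theorem core {t p q r : ℝ} (ht : 0 ≤ t) (hp : 0 ≤ p) (hq : 0 ≤ q) (hr : 0 ≤ r) :
    0 ≤ -3 * (t - 2 * (t ^ 2 / 3 + p) - 3 * r) * (1 + (t + q) + (t ^ 2 / 3 + p) + r) ^ 2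
      + ((t + q) + 2 * (t ^ 2 / 3 + p) + 3 * r) *
        (2 * (1 + (t + q) + (t ^ 2 / 3 + p) + r) + 1) := by
  set D0 : ℝ := 1 + t + t ^ 2 / 3 with hD0
  set y : ℝ := p + q + r with hy
  set κ : ℝ := t - 2 * t ^ 2 / 3 with hκ
  have hD0p : 0 < D0 := by positivity
  have hy0 : 0 ≤ y := by positivity
  have hκ1 : κ ≤ 3 / 8 := by
    rw [hκ]; nlinarith [sq_nonneg (t - 3 / 4)]
  -- the first term
  have h1 : -3 * κ * D0 ^ 2 + (t + 2 * t ^ 2 / 3) * (2 * D0 + 1) =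
      t * (t ^ 2 + 16 / 9 * t ^ 3 + t ^ 4 + 2 / 9 * t ^ 5) := by
    rw [hκ, hD0]; ring
  have h1' : 0 ≤ t * (t ^ 2 + 16 / 9 * t ^ 3 + t ^ 4 + 2 / 9 * t ^ 5) := by positivity
  -- the second term
  have h2 : 0 ≤ y * (-6 * κ * D0 + 2 * (t + 2 * t ^ 2 / 3) + 2 * D0 + 1) := by
    refine mul_nonneg hy0 ?_
    have : κ * D0 ≤ 3 / 8 * D0 := mul_le_mul_of_nonneg_right hκ1 hD0p.le
    have h3 : 0 ≤ t ^ 2 := sq_nonneg t
    rw [hD0] at this ⊢
    nlinarith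
  -- the third term
  have h3 : 0 ≤ y ^ 2 * (2 - 3 * κ) := mul_nonneg (sq_nonneg _) (by linarith)
  have h4 : 0 ≤ (p + 2 * r) * (2 * D0 + 1 + 2 * y) := by positivity
  have h5 : 0 ≤ 3 * (2 * p + 3 * r) * (D0 + y) ^ 2 := by positivity
  have e : -3 * (t - 2 * (t ^ 2 / 3 + p) - 3 * r) * (1 + (t + q) + (t ^ 2 / 3 + p) + r) ^ 2
      + ((t + q) + 2 * (t ^ 2 / 3 + p) + 3 * r) *
        (2 * (1 + (t + q) + (t ^ 2 / 3 + p) + r) + 1) =
      (-3 * κ * D0 ^ 2 + (t + 2 * t ^ 2 / 3) * (2 * D0 + 1))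
      + y * (-6 * κ * D0 + 2 * (t + 2 * t ^ 2 / 3) + 2 * D0 + 1)
      + y ^ 2 * (2 - 3 * κ) + (p + 2 * r) * (2 * D0 + 1 + 2 * y)
      + 3 * (2 * p + 3 * r) * (D0 + y) ^ 2 := by
    rw [hy, hκ, hD0]; ring
  rw [e, h1]
  linarith

/-- the inequality at `u = 1` -/
theorem core' {a b c : ℝ} (ha : 0 ≤ a) (hb : 0 ≤ b) (hc : 0 ≤ c) :
    3 * (a * b + b * c + c * a) *
        (1 + (a ^ 2 + b ^ 2 + c ^ 2) + (a ^ 2 * b ^ 2 + b ^ 2 * c ^ 2 + c ^ 2 * a ^ 2)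
          + a ^ 2 * b ^ 2 * c ^ 2) ^ 2 ≤
      3 * (2 * (a ^ 2 * b ^ 2 + b ^ 2 * c ^ 2 + c ^ 2 * a ^ 2) + 3 * (a ^ 2 * b ^ 2 * c ^ 2)) *
        (1 + (a ^ 2 + b ^ 2 + c ^ 2) + (a ^ 2 * b ^ 2 + b ^ 2 * c ^ 2 + c ^ 2 * a ^ 2)
          + a ^ 2 * b ^ 2 * c ^ 2) ^ 2
      + ((a ^ 2 + b ^ 2 + c ^ 2) + 2 * (a ^ 2 * b ^ 2 + b ^ 2 * c ^ 2 + c ^ 2 * a ^ 2)
          + 3 * (a ^ 2 * b ^ 2 * c ^ 2)) *
        (2 * (1 + (a ^ 2 + b ^ 2 + c ^ 2) + (a ^ 2 * b ^ 2 + b ^ 2 * c ^ 2 + c ^ 2 * a ^ 2)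
          + a ^ 2 * b ^ 2 * c ^ 2) + 1) := by
  set t : ℝ := a * b + b * c + c * a with ht
  have ht0 : 0 ≤ t := by positivity
  obtain ⟨q, hq⟩ : ∃ q, a ^ 2 + b ^ 2 + c ^ 2 = t + q := ⟨a ^ 2 + b ^ 2 + c ^ 2 - t, by ring⟩
  obtain ⟨p, hp⟩ : ∃ p, a ^ 2 * b ^ 2 + b ^ 2 * c ^ 2 + c ^ 2 * a ^ 2 = t ^ 2 / 3 + p :=
    ⟨a ^ 2 * b ^ 2 + b ^ 2 * c ^ 2 + c ^ 2 * a ^ 2 - t ^ 2 / 3, by ring⟩
  have hq0 : 0 ≤ q := by
    have : q = a ^ 2 + b ^ 2 + c ^ 2 - t := by linarith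
    rw [this, ht]
    nlinarith [sq_nonneg (a - b), sq_nonneg (b - c), sq_nonneg (c - a)]
  have hp0 : 0 ≤ p := by
    have : p = a ^ 2 * b ^ 2 + b ^ 2 * c ^ 2 + c ^ 2 * a ^ 2 - t ^ 2 / 3 := by linarith
    rw [this, ht]
    nlinarith [sq_nonneg (a * b - b * c), sq_nonneg (b * c - c * a), sq_nonneg (c * a - a * b)]
  have hr0 : 0 ≤ a ^ 2 * b ^ 2 * c ^ 2 := by positivity
  rw [hq, hp]
  have h := core ht0 hp0 hq0 hr0
  linarith

/-- `2 (1 - P_s(a))² P_s[b,c]²` at `s² = u` -/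
noncomputable def om (a b c u : ℝ) : ℝ :=
  2 * (u / (u + a ^ 2)) ^ 2 * (u * (b + c) / ((u + b ^ 2) * (u + c ^ 2))) ^ 2

/-- the comparison function -/
noncomputable def gg (a b c u : ℝ) : ℝ := (u / (u + a ^ 2)) * (u / (u + b ^ 2)) * (u / (u + c ^ 2))

theorem gg_nonneg {a b c u : ℝ} (hu : 0 ≤ u) : 0 ≤ gg a b c u := by
  unfold gg; positivity

theorem frac_le_one {a u : ℝ} (hu : 0 ≤ u) : u / (u + a ^ 2) ≤ 1 :=
  div_le_one_of_le₀ (by nlinarith [sq_nonneg a]) (by positivity)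

theorem gg_le_one {a b c u : ℝ} (hu : 0 ≤ u) : gg a b c u ≤ 1 := by
  unfold gg
  have h1 := frac_le_one (a := a) hu
  have h2 := frac_le_one (a := b) hu
  have h3 := frac_le_one (a := c) hu
  have h4 : 0 ≤ u / (u + a ^ 2) := by positivity
  have h5 : 0 ≤ u / (u + b ^ 2) := by positivity
  have h6 : 0 ≤ u / (u + c ^ 2) := by positivity
  exact mul_le_one₀ (mul_le_one₀ h1 h5 h2) h6 h3

/-- the logarithmic derivative -/
noncomputable def xx (a b c u : ℝ) : ℝ :=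
  a ^ 2 / (u + a ^ 2) + b ^ 2 / (u + b ^ 2) + c ^ 2 / (u + c ^ 2)

theorem hasDerivAt_frac {a u : ℝ} (hu : 0 < u) :
    HasDerivAt (fun u => u / (u + a ^ 2)) (u / (u + a ^ 2) * (a ^ 2 / (u + a ^ 2) / u)) u := by
  have h0 : u + a ^ 2 ≠ 0 := by positivity
  refine ((hasDerivAt_id' u).div ((hasDerivAt_id' u).add_const (a ^ 2)) h0).congr_deriv ?_
  field_simp
  ring

theorem hasDerivAt_gg {a b c u : ℝ} (hu : 0 < u) :
    HasDerivAt (gg a b c) (gg a b c u * (xx a b c u / u)) u := by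
  refine (((hasDerivAt_frac (a := a) hu).mul (hasDerivAt_frac (a := b) hu)).mul
    (hasDerivAt_frac (a := c) hu)).congr_deriv ?_
  simp only [Pi.mul_apply]
  unfold gg xx
  ring

/-- the primitive of the bound -/
noncomputable def hh (a b c u : ℝ) : ℝ :=
  4 * (gg a b c u + 1 / 3 * gg a b c u ^ 2 + 1 / 9 * gg a b c u ^ 3)

theorem hasDerivAt_hh {a b c u : ℝ} (hu : 0 < u) :
    HasDerivAt (hh a b c)
      (4 * (xx a b c u / u) * (gg a b c u + 2 / 3 * gg a b c u ^ 2 + 1 / 3 * gg a b c u ^ 3)) u := by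
  have h := hasDerivAt_gg (a := a) (b := b) (c := c) hu
  have h1 : HasDerivAt (fun u => 4 * (gg a b c u + 1 / 3 * gg a b c u ^ 2
      + 1 / 9 * gg a b c u ^ 3)) _ u :=
    ((h.add ((h.pow 2).const_mul (1 / 3))).add ((h.pow 3).const_mul (1 / 9))).const_mul 4
  refine h1.congr_deriv ?_
  push_cast
  ring

/-- **the pointwise inequality** -/
theorem om_le {a b c u : ℝ} (hu : 0 < u) :
    om a b c u + om b c a u + om c a b u ≤
      4 * (xx a b c u / u) * (gg a b c u + 2 / 3 * gg a b c u ^ 2 + 1 / 3 * gg a b c u ^ 3) := by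
  -- scaling
  obtain ⟨s, hs, rfl⟩ : ∃ s : ℝ, 0 < s ∧ u = s ^ 2 := ⟨√u, Real.sqrt_pos.2 hu, (Real.sq_sqrt hu.le).symm⟩
  obtain ⟨x, rfl⟩ : ∃ x, a = s * x := ⟨a / s, by field_simp⟩
  obtain ⟨y, rfl⟩ : ∃ y, b = s * y := ⟨b / s, by field_simp⟩
  obtain ⟨z, rfl⟩ : ∃ z, c = s * z := ⟨c / s, by field_simp⟩
  have hx : (0 : ℝ) < 1 + x ^ 2 := by positivity
  have hy : (0 : ℝ) < 1 + y ^ 2 := by positivity
  have hz : (0 : ℝ) < 1 + z ^ 2 := by positivity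
  have f1 : ∀ w : ℝ, s ^ 2 / (s ^ 2 + (s * w) ^ 2) = 1 / (1 + w ^ 2) := by
    intro w
    have : (0 : ℝ) < 1 + w ^ 2 := by positivity
    have h2 : s ^ 2 + (s * w) ^ 2 = s ^ 2 * (1 + w ^ 2) := by ring
    rw [h2]; field_simp
  have f2 : ∀ w : ℝ, (s * w) ^ 2 / (s ^ 2 + (s * w) ^ 2) = w ^ 2 / (1 + w ^ 2) := by
    intro w
    have : (0 : ℝ) < 1 + w ^ 2 := by positivity
    have h2 : s ^ 2 + (s * w) ^ 2 = s ^ 2 * (1 + w ^ 2) := by ring
    rw [h2, mul_pow]; field_simp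
  have f3 : ∀ v w : ℝ, s ^ 2 * (s * v + s * w) / ((s ^ 2 + (s * v) ^ 2) * (s ^ 2 + (s * w) ^ 2)) =
      (v + w) / (s * ((1 + v ^ 2) * (1 + w ^ 2))) := by
    intro v w
    have h1 : (0 : ℝ) < 1 + v ^ 2 := by positivity
    have h2 : (0 : ℝ) < 1 + w ^ 2 := by positivity
    have h3 : (s ^ 2 + (s * v) ^ 2) * (s ^ 2 + (s * w) ^ 2) =
        s ^ 4 * ((1 + v ^ 2) * (1 + w ^ 2)) := by ring
    rw [h3]; field_simp
  have key := core' (abs_nonneg x) (abs_nonneg y) (abs_nonneg z)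
  simp only [sq_abs] at key
  set D : ℝ := (1 + x ^ 2) * (1 + y ^ 2) * (1 + z ^ 2) with hD
  have hDp : 0 < D := by positivity
  have hDe : 1 + (x ^ 2 + y ^ 2 + z ^ 2) + (x ^ 2 * y ^ 2 + y ^ 2 * z ^ 2 + z ^ 2 * x ^ 2)
      + x ^ 2 * y ^ 2 * z ^ 2 = D := by rw [hD]; ring
  rw [hDe] at key
  set X : ℝ := x ^ 2 / (1 + x ^ 2) + y ^ 2 / (1 + y ^ 2) + z ^ 2 / (1 + z ^ 2) with hX
  have hXD : X * D = (x ^ 2 + y ^ 2 + z ^ 2) + 2 * (x ^ 2 * y ^ 2 + y ^ 2 * z ^ 2 + z ^ 2 * x ^ 2)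
      + 3 * (x ^ 2 * y ^ 2 * z ^ 2) := by
    rw [hX, hD]; field_simp; ring
  rw [← hXD] at key
  have habs : x * y + y * z + z * x ≤ |x| * |y| + |y| * |z| + |z| * |x| := by
    rw [← abs_mul, ← abs_mul, ← abs_mul]
    linarith [le_abs_self (x * y), le_abs_self (y * z), le_abs_self (z * x)]
  have key2 : 3 * (x ^ 2 + y ^ 2 + z ^ 2 + (x * y + y * z + z * x)) * D ^ 2 ≤
      X * D * (3 * D ^ 2 + 2 * D + 1) := by
    have h1 : 3 * (x * y + y * z + z * x) * D ^ 2 ≤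
        3 * (|x| * |y| + |y| * |z| + |z| * |x|) * D ^ 2 :=
      mul_le_mul_of_nonneg_right (by linarith) (by positivity)
    have h2 : X * D * (3 * D ^ 2) = 3 * (x ^ 2 + y ^ 2 + z ^ 2) * D ^ 2
        + 3 * (2 * (x ^ 2 * y ^ 2 + y ^ 2 * z ^ 2 + z ^ 2 * x ^ 2)
          + 3 * (x ^ 2 * y ^ 2 * z ^ 2)) * D ^ 2 := by rw [hXD]; ring
    linarith
  have hl : om (s * x) (s * y) (s * z) (s ^ 2) + om (s * y) (s * z) (s * x) (s ^ 2)
      + om (s * z) (s * x) (s * y) (s ^ 2) =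
      4 / s ^ 2 * ((x ^ 2 + y ^ 2 + z ^ 2 + (x * y + y * z + z * x)) / D ^ 2) := by
    unfold om
    rw [f1, f1, f1, f3, f3, f3, hD]
    field_simp
    ring
  have hr : 4 * (xx (s * x) (s * y) (s * z) (s ^ 2) / s ^ 2) *
      (gg (s * x) (s * y) (s * z) (s ^ 2) + 2 / 3 * gg (s * x) (s * y) (s * z) (s ^ 2) ^ 2
        + 1 / 3 * gg (s * x) (s * y) (s * z) (s ^ 2) ^ 3) =
      4 / s ^ 2 * (X * (1 / D + 2 / 3 * (1 / D) ^ 2 + 1 / 3 * (1 / D) ^ 3)) := by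
    have hg : gg (s * x) (s * y) (s * z) (s ^ 2) = 1 / D := by
      unfold gg
      rw [f1, f1, f1, hD]
      field_simp
    have hxx : xx (s * x) (s * y) (s * z) (s ^ 2) = X := by
      unfold xx
      rw [f2, f2, f2]
    rw [hg, hxx]
    field_simp
  rw [hl, hr]
  refine mul_le_mul_of_nonneg_left ?_ (by positivity)
  rw [div_le_iff₀ (by positivity)]
  have h3 : X * (1 / D + 2 / 3 * (1 / D) ^ 2 + 1 / 3 * (1 / D) ^ 3) * D ^ 2 =
      X * D * (3 * D ^ 2 + 2 * D + 1) / (3 * D ^ 2) := by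
    field_simp
  rw [h3, le_div_iff₀ (by positivity)]
  linarith

theorem om_nonneg {a b c u : ℝ} : 0 ≤ om a b c u := by unfold om; positivity

theorem continuousOn_om (a b c : ℝ) : ContinuousOn (om a b c) (Set.Ioi 0) := by
  unfold om
  have h : ∀ w : ℝ, ∀ u ∈ Set.Ioi (0 : ℝ), u + w ^ 2 ≠ 0 := fun w u hu => by
    have : 0 < u := hu
    positivity
  refine (continuousOn_const.mul ((continuousOn_id.div (continuousOn_id.add continuousOn_const)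
    (h a)).pow 2)).mul (((continuousOn_id.mul continuousOn_const).div
    ((continuousOn_id.add continuousOn_const).mul (continuousOn_id.add continuousOn_const))
    fun u hu => mul_ne_zero (h b u hu) (h c u hu)).pow 2)

/-- **the integrated inequality** -/
theorem integral_om_le (a b c : ℝ) {ε U : ℝ} (hε : 0 < ε) (hU : ε ≤ U) :
    ∫ u in ε..U, (om a b c u + om b c a u + om c a b u) ≤
      4 * (gg a b c U + 1 / 3 * gg a b c U ^ 2 + 1 / 9 * gg a b c U ^ 3) := by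
  have hpos : ∀ u ∈ Set.uIcc ε U, 0 < u := fun u hu => by
    rw [Set.uIcc_of_le hU] at hu
    exact hε.trans_le hu.1
  have hc : ContinuousOn (fun u => 4 * (xx a b c u / u) *
      (gg a b c u + 2 / 3 * gg a b c u ^ 2 + 1 / 3 * gg a b c u ^ 3)) (Set.uIcc ε U) := by
    have h : ∀ w : ℝ, ∀ u ∈ Set.uIcc ε U, u + w ^ 2 ≠ 0 := fun w u hu => by
      have := hpos u hu
      positivity
    have h0 : ∀ u ∈ Set.uIcc ε U, u ≠ 0 := fun u hu => (hpos u hu).ne'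
    have hx : ∀ w : ℝ, ContinuousOn (fun u : ℝ => w ^ 2 / (u + w ^ 2)) (Set.uIcc ε U) := fun w =>
      continuousOn_const.div (continuousOn_id.add continuousOn_const) (h w)
    have hg : ∀ w : ℝ, ContinuousOn (fun u : ℝ => u / (u + w ^ 2)) (Set.uIcc ε U) := fun w =>
      continuousOn_id.div (continuousOn_id.add continuousOn_const) (h w)
    have hG : ContinuousOn (gg a b c) (Set.uIcc ε U) := ((hg a).mul (hg b)).mul (hg c)
    have hX : ContinuousOn (xx a b c) (Set.uIcc ε U) := ((hx a).add (hx b)).add (hx c)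
    exact (continuousOn_const.mul (hX.div continuousOn_id h0)).mul
      ((hG.add (continuousOn_const.mul (hG.pow 2))).add (continuousOn_const.mul (hG.pow 3)))
  have h1 : ∫ u in ε..U, (4 * (xx a b c u / u) *
      (gg a b c u + 2 / 3 * gg a b c u ^ 2 + 1 / 3 * gg a b c u ^ 3)) =
      hh a b c U - hh a b c ε :=
    integral_eq_sub_of_hasDerivAt (fun u hu => hasDerivAt_hh (hpos u hu)) hc.intervalIntegrable
  have hsub : Set.uIcc ε U ⊆ Set.Ioi 0 := fun u hu => hpos u hu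
  have h2 : ∫ u in ε..U, (om a b c u + om b c a u + om c a b u) ≤
      ∫ u in ε..U, (4 * (xx a b c u / u) *
      (gg a b c u + 2 / 3 * gg a b c u ^ 2 + 1 / 3 * gg a b c u ^ 3)) := by
    refine integral_mono_on hU ?_ hc.intervalIntegrable fun u hu => om_le (hε.trans_le hu.1)
    exact ((((continuousOn_om a b c).mono hsub).add ((continuousOn_om b c a).mono hsub)).add
      ((continuousOn_om c a b).mono hsub)).intervalIntegrable
  have h3 : 0 ≤ hh a b c ε := by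
    unfold hh
    have := gg_nonneg (a := a) (b := b) (c := c) hε.le
    positivity
  rw [h1] at h2
  have h4 : hh a b c U = 4 * (gg a b c U + 1 / 3 * gg a b c U ^ 2 + 1 / 9 * gg a b c U ^ 3) := rfl
  linarith

/-- the constant `52/9 < 6` -/
theorem integral_om_le' (a b c : ℝ) {ε U : ℝ} (hε : 0 < ε) (hU : ε ≤ U) :
    ∫ u in ε..U, (om a b c u + om b c a u + om c a b u) ≤ 52 / 9 := by
  refine (integral_om_le a b c hε hU).trans ?_
  have h0 := gg_nonneg (a := a) (b := b) (c := c) (hε.le.trans hU)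
  have h1 := gg_le_one (a := a) (b := b) (c := c) (hε.le.trans hU)
  have h2 : gg a b c U ^ 2 ≤ 1 := pow_le_one₀ h0 h1
  have h3 : gg a b c U ^ 3 ≤ 1 := pow_le_one₀ h0 h1
  linarith

end Vale.Agent.P245.H316
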